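import Mathlib

/-!
# The Thorp shuffle / butterfly: basic definitions and the operator exponential

`X d` is the vertex set of the `d`-dimensional cube, `X 0 = Unit`, `X (d+1) = Bool × X d`.
For a norm preserving representation `ρ` of `Equiv.Perm α` on a real Hilbert space `V` we use

* `R ρ = ½ ∑_{a,b} (1 - ρ (swap a b))`, the interchange (random transposition) Laplacian;
* `hf b : Perm β →* Perm (Bool × β)`, permutations acting on the half `{b} × β` only;
* `flip U : Perm (Bool × β)`, which flips the first coordinate above `U`;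
* `P ρ`, the average of `ρ (flip U)` over all `U`;
* `T d ρ`, the butterfly operator, `T (d+1) ρ = T d (ρ ∘ hf false) * T d (ρ ∘ hf true) * P ρ`.
-/

open scoped BigOperators InnerProductSpace
open Equiv

namespace Vale.Agent.P162.H474

/-- The vertex set of the `d`-dimensional cube. -/
def X : ℕ → Type
  | 0 => Unit
  | (d+1) => Bool × X d

instance instFintypeX : (d : ℕ) → Fintype (X d)
  | 0 => inferInstanceAs (Fintype Unit)
  | (d+1) =>
    haveI := instFintypeX d
    inferInstanceAs (Fintype (Bool × X d))

instance instDecEqX : (d : ℕ) → DecidableEq (X d)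
  | 0 => inferInstanceAs (DecidableEq Unit)
  | (d+1) =>
    haveI := instDecEqX d
    inferInstanceAs (DecidableEq (Bool × X d))

theorem card_X (d : ℕ) : Fintype.card (X d) = 2 ^ d := by
  induction d with
  | zero => rfl
  | succ d ih =>
    have : Fintype.card (X (d+1)) = Fintype.card (Bool × X d) := rfl
    rw [this, Fintype.card_prod, ih, Fintype.card_bool, pow_succ, mul_comm]

section Perm
variable {β : Type*} [DecidableEq β]

/-- permutations of `β` acting on the half `{b} × β` of `Bool × β`. -/
def hf (b : Bool) : Perm β →* Perm (Bool × β) where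
  toFun g := Equiv.Perm.prodExtendRight b g
  map_one' := by
    ext ⟨c, x⟩ <;> by_cases h : c = b <;> simp [Equiv.Perm.prodExtendRight, h]
  map_mul' g h := by
    ext ⟨c, x⟩ <;> by_cases hc : c = b <;> simp [Equiv.Perm.prodExtendRight, hc]

omit [DecidableEq β] in
theorem hf_apply_eq (b : Bool) (g : Perm β) (x : β) : hf b g (b, x) = (b, g x) := by
  simp [hf]

omit [DecidableEq β] in
theorem hf_apply_ne {b c : Bool} (h : c ≠ b) (g : Perm β) (x : β) : hf b g (c, x) = (c, x) := by
  simp [hf, Equiv.Perm.prodExtendRight, h]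

theorem hf_swap (b : Bool) (x y : β) : hf b (swap x y) = swap (b, x) (b, y) := by
  ext ⟨c, z⟩
  · by_cases h : c = b
    · subst h
      rw [hf_apply_eq]
      simp only [swap_apply_def, Prod.mk.injEq, true_and]
      split_ifs <;> rfl
    · rw [hf_apply_ne h, swap_apply_of_ne_of_ne] <;> simp [h]
  · by_cases h : c = b
    · subst h
      rw [hf_apply_eq]
      simp only [swap_apply_def, Prod.mk.injEq, true_and]
      split_ifs <;> rfl
    · rw [hf_apply_ne h, swap_apply_of_ne_of_ne] <;> simp [h]

omit [DecidableEq β] in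
theorem hf_commute (g h : Perm β) : Commute (hf false g) (hf true h) := by
  ext ⟨c, z⟩ <;> cases c <;>
    simp [hf, Equiv.Perm.prodExtendRight]

/-- flip the first coordinate above the set `U`. -/
def flip (U : Finset β) : Perm (Bool × β) where
  toFun p := (xor p.1 (decide (p.2 ∈ U)), p.2)
  invFun p := (xor p.1 (decide (p.2 ∈ U)), p.2)
  left_inv := by rintro ⟨c, z⟩; simp
  right_inv := by rintro ⟨c, z⟩; simp

theorem flip_apply (U : Finset β) (c : Bool) (z : β) :
    flip U (c, z) = (xor c (decide (z ∈ U)), z) := rfl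

theorem flip_inv (U : Finset β) : (flip U)⁻¹ = flip U := rfl

theorem flip_mul (U W : Finset β) : flip U * flip W = flip (symmDiff U W) := by
  ext ⟨c, z⟩
  · simp only [Perm.mul_apply, flip_apply, Finset.mem_symmDiff]
    by_cases h1 : z ∈ U <;> by_cases h2 : z ∈ W <;> cases c <;> simp [h1, h2]
  · rfl

theorem flip_singleton (x : β) : flip {x} = swap (false, x) (true, x) := by
  ext ⟨c, z⟩
  · rw [flip_apply, swap_apply_def]
    by_cases h : z = x <;> cases c <;> simp [h]
  · rw [flip_apply, swap_apply_def]
    by_cases h : z = x <;> cases c <;> simp [h]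

theorem flip_empty : flip (∅ : Finset β) = 1 := by
  ext ⟨c, z⟩ <;> simp [flip_apply]

end Perm

variable {V : Type*} [NormedAddCommGroup V] [InnerProductSpace ℝ V]

section Defs
variable {α : Type*} [Fintype α] [DecidableEq α]

/-- interchange (random transposition) Laplacian. -/
noncomputable def R (ρ : Perm α →* (V →L[ℝ] V)) : V →L[ℝ] V :=
  (1/2 : ℝ) • ∑ a, ∑ b, (1 - ρ (swap a b))

variable {β : Type*} [Fintype β] [DecidableEq β]

/-- average over all flips. -/
noncomputable def P (ρ : Perm (Bool × β) →* (V →L[ℝ] V)) : V →L[ℝ] V :=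
  ((2 : ℝ) ^ Fintype.card β)⁻¹ • ∑ U : Finset β, ρ (flip U)

/-- the butterfly operator. -/
noncomputable def T : (d : ℕ) → (Perm (X d) →* (V →L[ℝ] V)) → (V →L[ℝ] V)
  | 0, _ => 1
  | (d+1), ρ => T d (ρ.comp (hf (β := X d) false)) * T d (ρ.comp (hf (β := X d) true)) *
      P (β := X d) ρ

theorem T_zero (ρ : Perm (X 0) →* (V →L[ℝ] V)) : T 0 ρ = 1 := rfl

theorem T_succ (d : ℕ) (ρ : Perm (X (d+1)) →* (V →L[ℝ] V)) :
    T (d+1) ρ = T d (ρ.comp (hf (β := X d) false)) * T d (ρ.comp (hf (β := X d) true)) *
      P (β := X d) ρ := rfl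

end Defs

end Vale.Agent.P162.H474
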