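import Vale.Agent.P162.H474.Step

/-!
# The operator inequality `T_d^* T_d ≤ exp(-s_d R)` for the butterfly
-/

open scoped BigOperators InnerProductSpace Nat
open Equiv

set_option linter.deprecated false
set_option linter.unusedSectionVars false

namespace Vale.Agent.P162.H474

variable {V : Type*} [NormedAddCommGroup V] [InnerProductSpace ℝ V]

theorem commute_R_of {α : Type*} [Fintype α] [DecidableEq α] {ρ : Perm α →* (V →L[ℝ] V)}
    {M : V →L[ℝ] V} (h : ∀ g, Commute M (ρ g)) : Commute M (R ρ) := by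
  rw [R]
  refine Commute.smul_right (Commute.sum_right _ _ _ fun a _ =>
      Commute.sum_right _ _ _ fun b _ => ?_) _
  exact (Commute.one_right M).sub_right (h _)

theorem commute_P_of {β : Type*} [Fintype β] [DecidableEq β]
    {ρ : Perm (Bool × β) →* (V →L[ℝ] V)}
    {M : V →L[ℝ] V} (h : ∀ g, Commute M (ρ g)) : Commute M (P ρ) := by
  rw [P]
  exact Commute.smul_right (Commute.sum_right _ _ _ fun a _ => h _) _

theorem commute_T_of (d : ℕ) : ∀ {ρ : Perm (X d) →* (V →L[ℝ] V)}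
    {M : V →L[ℝ] V} (_ : ∀ g, Commute M (ρ g)), Commute M (T d ρ) := by
  induction d with
  | zero => intro ρ M _; exact Commute.one_right M
  | succ d ih =>
    intro ρ M h
    rw [T_succ]
    exact ((ih fun g => h _).mul_right (ih fun g => h _)).mul_right (commute_P_of h)

/-- `P` is a contraction. -/
theorem norm_P_le {β : Type*} [Fintype β] [DecidableEq β]
    {ρ : Perm (Bool × β) →* (V →L[ℝ] V)} (hρ : ∀ g v, ‖ρ g v‖ = ‖v‖) (v : V) :
    ‖P ρ v‖ ≤ ‖v‖ := by
  rw [P, ContinuousLinearMap.smul_apply, norm_smul, ContinuousLinearMap.coe_sum',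
    Finset.sum_apply]
  have h1 : ‖∑ U : Finset β, ρ (flip U) v‖ ≤ ∑ _U : Finset β, ‖v‖ :=
    (norm_sum_le _ _).trans (Finset.sum_le_sum fun U _ => (hρ _ _).le)
  rw [Finset.sum_const, Finset.card_univ, Fintype.card_finset, nsmul_eq_mul] at h1
  push_cast at h1
  rw [Real.norm_of_nonneg (by positivity)]
  calc ((2 : ℝ) ^ Fintype.card β)⁻¹ * ‖∑ U : Finset β, ρ (flip U) v‖
      ≤ ((2 : ℝ) ^ Fintype.card β)⁻¹ * (2 ^ Fintype.card β * ‖v‖) :=
        mul_le_mul_of_nonneg_left h1 (by positivity)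
    _ = ‖v‖ := by field_simp

/-- the exponent. -/
noncomputable def sd (d : ℕ) : ℝ := (1/32) * (1/2) ^ d * (1 + (1/2) ^ d)

theorem sd_pos (d : ℕ) : 0 < sd d := by unfold sd; positivity

theorem sd_le (d : ℕ) : 16 * 2 ^ d * sd d ≤ 1 := by
  unfold sd
  have h : (1/2 : ℝ) ^ d ≤ 1 := pow_le_one₀ (by norm_num) (by norm_num)
  have h2 : (2 : ℝ) ^ d * (1/2) ^ d = 1 := by rw [← mul_pow]; norm_num
  calc 16 * 2 ^ d * ((1/32) * (1/2 : ℝ) ^ d * (1 + (1/2) ^ d))
      = (1/2) * (2 ^ d * (1/2) ^ d) * (1 + (1/2) ^ d) := by ring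
    _ = (1/2) * (1 + (1/2) ^ d) := by rw [h2]; ring
    _ ≤ 1 := by linarith

theorem sd_succ_le (d : ℕ) : sd (d + 1) ≤ sd d * (1 - 4 * sd d) / 2 := by
  unfold sd
  have h : (1/2 : ℝ) ^ d ≤ 1 := pow_le_one₀ (by norm_num) (by norm_num)
  have h0 : (0 : ℝ) < (1/2) ^ d := by positivity
  rw [pow_succ]
  set z := (1/2 : ℝ) ^ d
  nlinarith [mul_pos h0 h0, mul_nonneg h0.le (sub_nonneg.2 h), sq_nonneg (1 - z),
    mul_nonneg (mul_pos h0 h0).le (sub_nonneg.2 h),
    mul_nonneg (mul_nonneg (mul_pos h0 h0).le (sub_nonneg.2 h)) (by linarith : 0 ≤ 3 + z)]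

variable [CompleteSpace V]

/-- **Operator inequality for one round of the butterfly.** -/
theorem norm_T_sq_le (d : ℕ) : ∀ (ρ : Perm (X d) →* (V →L[ℝ] V)) (_ : ∀ g v, ‖ρ g v‖ = ‖v‖)
    (v : V), ‖T d ρ v‖ ^ 2 ≤ ⟪v, NormedSpace.exp (-(sd d • R ρ)) v⟫_ℝ := by
  induction d with
  | zero =>
    intro ρ hρ v
    have hR : R ρ = 0 := by
      rw [R]
      convert smul_zero _
      refine Finset.sum_eq_zero fun a _ => Finset.sum_eq_zero fun b _ => ?_
      have : a = b := rfl
      rw [this, swap_self]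
      have : (Equiv.refl (X 0) : Perm (X 0)) = 1 := rfl
      rw [this, map_one, sub_self]
    rw [hR, T_zero]
    simp
  | succ d ih =>
    intro ρ hρ v
    set ρ0 := ρ.comp (hf (β := X d) false) with hρ0
    set ρ1 := ρ.comp (hf (β := X d) true) with hρ1
    have n0 : ∀ g v, ‖ρ0 g v‖ = ‖v‖ := fun g v => hρ _ v
    have n1 : ∀ g v, ‖ρ1 g v‖ = ‖v‖ := fun g v => hρ _ v
    have c01 : ∀ g h, Commute (ρ0 g) (ρ1 h) := fun g h => (hf_commute g h).map ρ
    set v' := P (β := X d) ρ v with hv'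
    have hT : T (d+1) ρ v = T d ρ0 (T d ρ1 v') := rfl
    rw [hT]
    -- first half
    have h1 := ih ρ0 n0 (T d ρ1 v')
    have sa0 : SA (-(sd d • R ρ0)) := ((R_psd n0).1.smul _).neg
    have sa1 : SA (-(sd d • R ρ1)) := ((R_psd n1).1.smul _).neg
    rw [inner_exp_eq sa0] at h1
    -- commute
    have cR0 : ∀ h, Commute (R ρ0) (ρ1 h) := fun h =>
      (commute_R_of fun g => (c01 g h).symm).symm
    set G := NormedSpace.exp ((1/2 : ℝ) • -(sd d • R ρ0)) with hG
    have cG : Commute G (T d ρ1) := by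
      refine Commute.exp_left ?_
      refine Commute.smul_left ?_ _
      have c3 : Commute (sd d • R ρ0) (T d ρ1) :=
        (commute_T_of d cR0).smul_left _
      exact c3.neg_left
    have h2 : G (T d ρ1 v') = T d ρ1 (G v') := by
      have := congrArg (fun M : V →L[ℝ] V => M v') cG.eq
      simpa using this
    rw [h2] at h1
    have h3 := h1.trans (ih ρ1 n1 (G v'))
    -- combine
    have c0R1 : Commute (R ρ0) (R ρ1) := commute_R_of cR0
    have c4 : Commute (-(sd d • R ρ0)) (-(sd d • R ρ1)) :=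
      (((c0R1.smul_left (sd d)).smul_right (sd d)).neg_left).neg_right
    rw [← inner_exp_add sa0 c4 v'] at h3
    have e1 : -(sd d • R ρ0) + -(sd d • R ρ1) = -(sd d • (R ρ0 + R ρ1)) := by module
    rw [e1] at h3
    -- level inequality
    have h4 := level_le (β := X d) hρ (P_charge v) (sd_pos d).le
      (by rw [card_X]; exact_mod_cast sd_le d)
    have h5 := inner_exp_anti (R_psd hρ) (sd_succ_le d) v'
    have h6 := (h3.trans h4).trans h5
    -- remove P
    have saR : SA (-(sd (d+1) • R ρ)) := ((R_psd hρ).1.smul _).neg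
    refine h6.trans ?_
    rw [inner_exp_eq saR, inner_exp_eq saR]
    have cP : Commute (NormedSpace.exp ((1/2 : ℝ) • -(sd (d+1) • R ρ))) (P (β := X d) ρ) := by
      refine Commute.exp_left ?_
      refine Commute.smul_left ?_ _
      have c3 : Commute (sd (d+1) • R ρ) (P (β := X d) ρ) :=
        (commute_P_of (β := X d) fun g => R_commute g).smul_left _
      exact c3.neg_left
    have h7 : NormedSpace.exp ((1/2 : ℝ) • -(sd (d+1) • R ρ)) v' =
        P (β := X d) ρ (NormedSpace.exp ((1/2 : ℝ) • -(sd (d+1) • R ρ)) v) := by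
      have := congrArg (fun M : V →L[ℝ] V => M v) cP.eq
      simpa using this
    rw [h7]
    exact pow_le_pow_left₀ (norm_nonneg _) (norm_P_le (β := X d) hρ _) 2

/-- **Operator inequality for `M` rounds.** -/
theorem norm_T_pow_sq_le (d : ℕ) (ρ : Perm (X d) →* (V →L[ℝ] V)) (hρ : ∀ g v, ‖ρ g v‖ = ‖v‖)
    (M : ℕ) : ∀ v : V, ‖(T d ρ ^ M) v‖ ^ 2 ≤
      ⟪v, NormedSpace.exp (-((M * sd d) • R ρ)) v⟫_ℝ := by
  induction M with
  | zero => intro v; simp
  | succ M ih =>
    intro v
    have saR : ∀ c : ℝ, SA (-(c • R ρ)) := fun c => ((R_psd hρ).1.smul _).neg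
    rw [pow_succ' (T d ρ) M, ContinuousLinearMap.mul_apply]
    refine (norm_T_sq_le d ρ hρ _).trans ?_
    rw [inner_exp_eq (saR _)]
    set G := NormedSpace.exp ((1/2 : ℝ) • -(sd d • R ρ)) with hG
    have cG : Commute G (T d ρ ^ M) := by
      refine Commute.pow_right ?_ M
      refine Commute.exp_left ?_
      refine Commute.smul_left ?_ _
      have c3 : Commute (sd d • R ρ) (T d ρ) :=
        (commute_T_of d fun g => R_commute g).smul_left _
      exact c3.neg_left
    have h2 : G ((T d ρ ^ M) v) = (T d ρ ^ M) (G v) := by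
      have := congrArg (fun M : V →L[ℝ] V => M v) cG.eq
      simpa using this
    rw [h2]
    refine (ih (G v)).trans (le_of_eq ?_)
    have c4 : Commute (-(sd d • R ρ)) (-(((M : ℝ) * sd d) • R ρ)) :=
      ((((Commute.refl (R ρ)).smul_left (sd d)).smul_right _).neg_left).neg_right
    rw [hG, ← inner_exp_add (saR _) c4 v]
    congr 3
    push_cast
    module

end Vale.Agent.P162.H474
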