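import Vale.Agent.P162.H474.Level

/-!
# Charges
-/

open scoped BigOperators InnerProductSpace Nat
open Equiv

set_option linter.deprecated false
set_option linter.unusedSectionVars false

namespace Vale.Agent.P162.H474

variable {V : Type*} [NormedAddCommGroup V] [InnerProductSpace ℝ V]
variable {β : Type*} [Fintype β] [DecidableEq β] {ρ : Perm (Bool × β) →* (V →L[ℝ] V)}

/-- the four transpositions between the two points above `x` and the two points above `y`,
with signs. -/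
noncomputable def E (ρ : Perm (Bool × β) →* (V →L[ℝ] V)) (x y : β) : V →L[ℝ] V :=
  ρ (swap (false, x) (true, y)) + ρ (swap (true, x) (false, y))
    - ρ (swap (false, x) (false, y)) - ρ (swap (true, x) (true, y))

/-- the part of the Laplacian which is odd under flips (up to the diagonal part). -/
noncomputable def B (ρ : Perm (Bool × β) →* (V →L[ℝ] V)) : V →L[ℝ] V :=
  (-(1/4) : ℝ) • ∑ x, ∑ y, E ρ x y

theorem sum_bool_prod (f : (Bool × β) → V →L[ℝ] V) :
    ∑ a, f a = ∑ x, (f (false, x) + f (true, x)) := by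
  rw [Fintype.sum_prod_type_right]
  refine Finset.sum_congr rfl fun x _ => ?_
  rw [Fintype.sum_bool, add_comm]

/-- The exact identity `R₀ + R₁ = R/2 - B`. -/
theorem R_halves : R (ρ.comp (hf false)) + R (ρ.comp (hf true)) = (1/2 : ℝ) • R ρ - B ρ := by
  have h : ∀ b, R (ρ.comp (hf b)) = (1/2 : ℝ) • ∑ x, ∑ y, (1 - ρ (swap (b, x) (b, y))) := by
    intro b
    simp only [R, MonoidHom.comp_apply, hf_swap]
  rw [h, h, R, B, sum_bool_prod]
  simp only [sum_bool_prod]
  rw [← smul_add, ← Finset.sum_add_distrib, smul_smul, Finset.smul_sum, Finset.smul_sum,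
    Finset.smul_sum, ← Finset.sum_sub_distrib]
  refine Finset.sum_congr rfl fun x _ => ?_
  rw [← Finset.sum_add_distrib, ← Finset.sum_add_distrib, Finset.smul_sum, Finset.smul_sum,
    Finset.smul_sum, ← Finset.sum_sub_distrib]
  refine Finset.sum_congr rfl fun y _ => ?_
  simp only [E]
  module

theorem swap_conj {α : Type*} [DecidableEq α] (g : Perm α) (a b : α) :
    g * swap a b = swap (g a) (g b) * g := mul_swap_eq_swap_mul g a b

/-- `v` has charge `S`: flips at points of `S` act by `-1`, other flips by `1`. -/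
def HasCharge (ρ : Perm (Bool × β) →* (V →L[ℝ] V)) (S : Finset β) (v : V) : Prop :=
  ∀ z, ρ (flip {z}) v = (if z ∈ S then (-1 : ℝ) else 1) • v

theorem HasCharge.zero (S : Finset β) : HasCharge ρ S 0 := by
  intro z; simp

theorem HasCharge.smul {S : Finset β} {v : V} (hv : HasCharge ρ S v) (c : ℝ) :
    HasCharge ρ S (c • v) := by
  intro z; rw [map_smul, hv z, smul_comm]

theorem HasCharge.sum {ι : Type*} {s : Finset ι} {S : Finset β} {v : ι → V}
    (hv : ∀ i ∈ s, HasCharge ρ S (v i)) : HasCharge ρ S (∑ i ∈ s, v i) := by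
  intro z
  rw [map_sum, Finset.smul_sum]
  exact Finset.sum_congr rfl fun i hi => hv i hi z

theorem HasCharge.inner_eq_zero (hρ : ∀ g v, ‖ρ g v‖ = ‖v‖) {S S' : Finset β} {v w : V}
    (hv : HasCharge ρ S v) (hw : HasCharge ρ S' w) (h : S ≠ S') : ⟪v, w⟫_ℝ = 0 := by
  have : ∃ z, ¬ (z ∈ S ↔ z ∈ S') := by
    by_contra hcon
    push Not at hcon
    exact h (Finset.ext hcon)
  obtain ⟨z, hz⟩ := this
  have e := inner_map hρ (flip {z}) v w
  rw [hv z, hw z, inner_smul_left, inner_smul_right] at e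
  by_cases h1 : z ∈ S <;> by_cases h2 : z ∈ S' <;> simp [h1, h2] at hz e <;> linarith

/-- commutation of `E x y` with flips. -/
theorem flip_E (x y z : β) :
    ρ (flip {z}) * E ρ x y =
      (if z = x then (-1 : ℝ) else 1) • (if z = y then (-1 : ℝ) else 1) •
        (E ρ x y * ρ (flip {z})) := by
  have hc : ∀ a b : Bool × β, ρ (flip {z}) * ρ (swap a b) =
      ρ (swap (flip {z} a) (flip {z} b)) * ρ (flip {z}) := by
    intro a b
    rw [← map_mul, swap_conj, map_mul]
  simp only [E, mul_add, mul_sub, hc, flip_apply, Finset.mem_singleton]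
  by_cases h1 : z = x
  · subst h1
    by_cases h2 : z = y
    · subst h2
      simp [swap_self]
      rw [swap_comm (false, z) (true, z)]
      simp only [sub_mul, add_mul]
    · have h3 : y ≠ z := fun h => h2 h.symm
      simp [h2, h3, sub_mul, add_mul]
      abel
  · have h4 : x ≠ z := fun h => h1 h.symm
    by_cases h2 : z = y
    · subst h2
      simp [h1, h4, sub_mul, add_mul]
      abel
    · have h3 : y ≠ z := fun h => h2 h.symm
      simp [h1, h2, h3, h4, sub_mul, add_mul]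

theorem HasCharge.E {S : Finset β} {v : V} (hv : HasCharge ρ S v) (x y : β) :
    HasCharge ρ (fl y (fl x S)) (E ρ x y v) := by
  intro z
  have h := flip_E (ρ := ρ) x y z
  have h2 := congrArg (fun M : V →L[ℝ] V => M v) h
  simp only [ContinuousLinearMap.mul_apply, ContinuousLinearMap.smul_apply] at h2
  rw [h2, hv z, map_smul, smul_smul, smul_smul]
  congr 1
  simp only [fl_apply, Finset.mem_symmDiff, Finset.mem_singleton]
  by_cases h1 : z = x <;> by_cases h3 : z = y <;> by_cases h4 : z ∈ S <;> simp [h1, h3, h4] <;>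
    simp_all

theorem norm_E_le (hρ : ∀ g v, ‖ρ g v‖ = ‖v‖) (x y : β) (v : V) : ‖E ρ x y v‖ ≤ 4 * ‖v‖ := by
  simp only [E, ContinuousLinearMap.sub_apply, ContinuousLinearMap.add_apply]
  refine (norm_sub_le _ _).trans ?_
  refine (add_le_add_left ((norm_sub_le _ _).trans (add_le_add_left (norm_add_le _ _) _)) _).trans ?_
  simp only [hρ]
  linarith

theorem norm_E_sq_le (hρ : ∀ g v, ‖ρ g v‖ = ‖v‖) (x y : β) (v : V) :
    ‖E ρ x y v‖ ^ 2 ≤ 8 * (⟪v, (1 - ρ (swap (false, x) (true, y))) v⟫_ℝ +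
      ⟪v, (1 - ρ (swap (true, x) (false, y))) v⟫_ℝ +
      ⟪v, (1 - ρ (swap (false, x) (false, y))) v⟫_ℝ +
      ⟪v, (1 - ρ (swap (true, x) (true, y))) v⟫_ℝ) := by
  have e : E ρ x y v = -(v - ρ (swap (false, x) (true, y)) v) -
      (v - ρ (swap (true, x) (false, y)) v) + (v - ρ (swap (false, x) (false, y)) v) +
      (v - ρ (swap (true, x) (true, y)) v) := by
    simp only [E, ContinuousLinearMap.sub_apply, ContinuousLinearMap.add_apply]
    abel
  have h1 := norm_sub_swap hρ (false, x) (true, y) v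
  have h2 := norm_sub_swap hρ (true, x) (false, y) v
  have h3 := norm_sub_swap hρ (false, x) (false, y) v
  have h4 := norm_sub_swap hρ (true, x) (true, y) v
  set a := ‖v - ρ (swap (false, x) (true, y)) v‖
  set b := ‖v - ρ (swap (true, x) (false, y)) v‖
  set c := ‖v - ρ (swap (false, x) (false, y)) v‖
  set d := ‖v - ρ (swap (true, x) (true, y)) v‖
  have hn : ‖E ρ x y v‖ ≤ a + b + c + d := by
    rw [e]
    refine (norm_add_le _ _).trans (add_le_add_left ?_ _)
    refine (norm_add_le _ _).trans (add_le_add_left ?_ _)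
    refine (norm_sub_le _ _).trans (add_le_add_left ?_ _)
    rw [norm_neg]
  have h0 : 0 ≤ ‖E ρ x y v‖ := norm_nonneg _
  have : ‖E ρ x y v‖ ^ 2 ≤ (a + b + c + d) ^ 2 := pow_le_pow_left₀ h0 hn 2
  nlinarith [sq_nonneg (a - b), sq_nonneg (a - c), sq_nonneg (a - d), sq_nonneg (b - c),
    sq_nonneg (b - d), sq_nonneg (c - d)]

theorem sum_norm_E_sq_le (hρ : ∀ g v, ‖ρ g v‖ = ‖v‖) (v : V) :
    ∑ x, ∑ y, ‖E ρ x y v‖ ^ 2 ≤ 16 * ⟪v, R ρ v⟫_ℝ := by
  have hR : ⟪v, R ρ v⟫_ℝ = (1/2 : ℝ) * ∑ x, ∑ y,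
      (⟪v, (1 - ρ (swap (false, x) (true, y))) v⟫_ℝ +
      ⟪v, (1 - ρ (swap (true, x) (false, y))) v⟫_ℝ +
      ⟪v, (1 - ρ (swap (false, x) (false, y))) v⟫_ℝ +
      ⟪v, (1 - ρ (swap (true, x) (true, y))) v⟫_ℝ) := by
    rw [R, ContinuousLinearMap.smul_apply, inner_smul_right]
    congr 1
    rw [sum_bool_prod]
    simp only [sum_bool_prod]
    rw [ContinuousLinearMap.coe_sum', Finset.sum_apply, inner_sum]
    refine Finset.sum_congr rfl fun x _ => ?_
    rw [← Finset.sum_add_distrib, ContinuousLinearMap.coe_sum', Finset.sum_apply, inner_sum]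
    refine Finset.sum_congr rfl fun y _ => ?_
    simp only [ContinuousLinearMap.add_apply, inner_add_right]
    ring
  rw [hR, ← mul_assoc, Finset.mul_sum]
  refine Finset.sum_le_sum fun x _ => ?_
  rw [Finset.mul_sum]
  refine Finset.sum_le_sum fun y _ => ?_
  refine (norm_E_sq_le hρ x y v).trans (le_of_eq ?_)
  norm_num

/-! ### Families of charged vectors -/

/-- `B` at the level of families of charged vectors. -/
noncomputable def K (ρ : Perm (Bool × β) →* (V →L[ℝ] V)) (c : Finset β → V) (S : Finset β) : V :=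
  (-(1/4) : ℝ) • ∑ x, ∑ y, E ρ x y (c (fl x (fl y S)))

theorem K_charge {c : Finset β → V} (hc : ∀ S, HasCharge ρ S (c S)) (S : Finset β) :
    HasCharge ρ S (K ρ c S) := by
  refine HasCharge.smul (HasCharge.sum fun x _ => HasCharge.sum fun y _ => ?_) _
  have h := (hc (fl x (fl y S))).E x y
  have e : fl y (fl x (fl x (fl y S))) = S := by simp [fl_apply]
  rwa [e] at h

theorem K_sum (c : Finset β → V) : ∑ S, K ρ c S = B ρ (∑ S, c S) := by
  simp only [K, B]
  rw [← Finset.smul_sum, ContinuousLinearMap.smul_apply]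
  congr 1
  rw [Finset.sum_comm]
  simp only [ContinuousLinearMap.coe_sum', Finset.sum_apply]
  refine Finset.sum_congr rfl fun x _ => ?_
  rw [Finset.sum_comm]
  refine Finset.sum_congr rfl fun y _ => ?_
  rw [map_sum]
  exact Equiv.sum_comp ((fl x) * (fl y)) (fun S => E ρ x y (c S))

theorem norm_sq_sum (hρ : ∀ g v, ‖ρ g v‖ = ‖v‖) {c : Finset β → V}
    (hc : ∀ S, HasCharge ρ S (c S)) : ‖∑ S, c S‖ ^ 2 = ∑ S, ‖c S‖ ^ 2 := by
  rw [← real_inner_self_eq_norm_sq, sum_inner]
  refine Finset.sum_congr rfl fun S _ => ?_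
  rw [inner_sum, Finset.sum_eq_single S, real_inner_self_eq_norm_sq]
  · intro S' _ h
    exact (hc S).inner_eq_zero hρ (hc S') h.symm
  · intro h; exact absurd (Finset.mem_univ S) h

theorem norm_K_le (hρ : ∀ g v, ‖ρ g v‖ = ‖v‖) (c : Finset β → V) (S : Finset β) :
    ‖K ρ c S‖ ≤ Lop (Lop fun S => ‖c S‖) S := by
  have h1 : ‖∑ x, ∑ y, E ρ x y (c (fl x (fl y S)))‖ ≤ ∑ x, ∑ y, 4 * ‖c (fl x (fl y S))‖ := by
    refine (norm_sum_le _ _).trans (Finset.sum_le_sum fun x _ => ?_)
    refine (norm_sum_le _ _).trans (Finset.sum_le_sum fun y _ => ?_)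
    exact norm_E_le hρ x y _
  rw [K, norm_smul]
  have h2 : Lop (Lop fun S => ‖c S‖) S = (1/4) * ∑ x, ∑ y, 4 * ‖c (fl x (fl y S))‖ := by
    simp only [Lop]
    rw [Finset.sum_comm]
    rw [Finset.mul_sum]
    refine Finset.sum_congr rfl fun x _ => ?_
    rw [Finset.mul_sum]
    refine Finset.sum_congr rfl fun y _ => ?_
    ring
  rw [h2]
  have h3 : ‖(-(1/4) : ℝ)‖ = 1/4 := by norm_num
  rw [h3]
  exact mul_le_mul_of_nonneg_left h1 (by norm_num)

theorem K_supp {c : Finset β → V} {q : ℕ} (hc : ∀ S, q < S.card → c S = 0) (S : Finset β)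
    (hS : q + 2 < S.card) (hρ : ∀ g v, ‖ρ g v‖ = ‖v‖) : K ρ c S = 0 := by
  have h := norm_K_le hρ c S
  have h0 : Lop (Lop fun S => ‖c S‖) S = 0 := by
    refine Lop_supp (q := q + 1) (fun S' hS' => Lop_supp (q := q) ?_ S' hS') S hS
    intro S'' h''
    simp [hc S'' h'']
  rw [h0] at h
  exact norm_le_zero_iff.1 h

theorem K_sq_le (hρ : ∀ g v, ‖ρ g v‖ = ‖v‖) {c : Finset β → V} {q : ℕ}
    (hc : ∀ S, q < S.card → c S = 0) :
    ∑ S, ‖K ρ c S‖ ^ 2 ≤ (4 * (q + 2) * Fintype.card β) ^ 2 * ∑ S, ‖c S‖ ^ 2 := by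
  have h1 : ∑ S, ‖K ρ c S‖ ^ 2 ≤ ∑ S, (Lop (Lop fun S => ‖c S‖) S) ^ 2 :=
    Finset.sum_le_sum fun S _ => pow_le_pow_left₀ (norm_nonneg _) (norm_K_le hρ c S) 2
  have ha : ∀ S : Finset β, q < S.card → (fun S => ‖c S‖) S = 0 := by
    intro S hS; simp [hc S hS]
  have h2 := Lop_sq_le (a := Lop fun S => ‖c S‖) (q := q + 1)
    (fun S' hS' => Lop_supp (q := q) ha S' hS')
  have h3 := Lop_sq_le (a := fun S => ‖c S‖) (q := q) ha
  have hm : (0 : ℝ) ≤ Fintype.card β := by positivity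
  have hq : (0 : ℝ) ≤ q := by positivity
  have hs : 0 ≤ ∑ S, ‖c S‖ ^ 2 := by positivity
  refine h1.trans (h2.trans ?_)
  push_cast
  calc 4 * ((q : ℝ) + 1 + 1) * Fintype.card β * ∑ S, (Lop (fun S => ‖c S‖) S) ^ 2
      ≤ 4 * ((q : ℝ) + 1 + 1) * Fintype.card β *
        (4 * (q + 1) * Fintype.card β * ∑ S, ‖c S‖ ^ 2) :=
        mul_le_mul_of_nonneg_left h3 (by positivity)
    _ = (4 * ((q : ℝ) + 2) * Fintype.card β) * (4 * (q + 1) * Fintype.card β)
          * ∑ S, ‖c S‖ ^ 2 := by ring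
    _ ≤ (4 * ((q : ℝ) + 2) * Fintype.card β) * (4 * (q + 2) * Fintype.card β)
          * ∑ S, ‖c S‖ ^ 2 := by
        refine mul_le_mul_of_nonneg_right ?_ hs
        refine mul_le_mul_of_nonneg_left ?_ (by positivity)
        nlinarith
    _ = _ := by ring

/-- iterating: `‖B^j u‖ ≤ (8m)^j (j+1)! ‖u‖` for `u` supported on charges of size `≤ 2`. -/
theorem iterate_K_sq_le (hρ : ∀ g v, ‖ρ g v‖ = ‖v‖) {c : Finset β → V}
    (hc : ∀ S, 2 < S.card → c S = 0) (j : ℕ) :
    (∀ S, 2 + 2 * j < S.card → (K ρ)^[j] c S = 0) ∧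
    ∑ S, ‖(K ρ)^[j] c S‖ ^ 2 ≤
      ((8 * Fintype.card β) ^ j * (j + 1)!) ^ 2 * ∑ S, ‖c S‖ ^ 2 := by
  induction j with
  | zero => exact ⟨fun S hS => hc S (by omega), by simp⟩
  | succ j ih =>
    refine ⟨fun S hS => ?_, ?_⟩
    · rw [Function.iterate_succ_apply']
      exact K_supp ih.1 S (by omega) hρ
    · rw [Function.iterate_succ_apply']
      refine (K_sq_le hρ ih.1).trans ?_
      refine (mul_le_mul_of_nonneg_left ih.2 (by positivity)).trans (le_of_eq ?_)
      rw [Nat.factorial_succ (j + 1)]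
      push_cast
      ring

theorem iterate_K_charge {c : Finset β → V} (hc : ∀ S, HasCharge ρ S (c S)) (j : ℕ) :
    ∀ S, HasCharge ρ S ((K ρ)^[j] c S) := by
  induction j with
  | zero => exact hc
  | succ j ih => rw [Function.iterate_succ_apply']; exact K_charge ih

theorem iterate_K_sum (c : Finset β → V) (j : ℕ) :
    ∑ S, (K ρ)^[j] c S = (B ρ ^ j) (∑ S, c S) := by
  induction j with
  | zero => simp
  | succ j ih =>
    rw [Function.iterate_succ_apply', K_sum, ih, pow_succ', ContinuousLinearMap.mul_apply]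

end Vale.Agent.P162.H474
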