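import Vale.Agent.P162.H474.Basic

/-!
# Quadratic forms of operator exponentials
-/

open scoped BigOperators InnerProductSpace Nat
open NormedSpace

set_option linter.deprecated false

namespace Vale.Agent.P162.H474

variable {V : Type*} [NormedAddCommGroup V] [InnerProductSpace ℝ V]

/-- symmetric operator. -/
def SA (A : V →L[ℝ] V) : Prop := ∀ v w, ⟪A v, w⟫_ℝ = ⟪v, A w⟫_ℝ

/-- symmetric positive semidefinite operator. -/
def Psd (A : V →L[ℝ] V) : Prop := SA A ∧ ∀ v, 0 ≤ ⟪v, A v⟫_ℝ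

theorem SA.zero : SA (0 : V →L[ℝ] V) := by intro v w; simp

theorem SA.one : SA (1 : V →L[ℝ] V) := by intro v w; simp

theorem SA.smul {A : V →L[ℝ] V} (hA : SA A) (c : ℝ) : SA (c • A) := by
  intro v w
  simp [inner_smul_left, inner_smul_right, hA v w]

theorem SA.neg {A : V →L[ℝ] V} (hA : SA A) : SA (-A) := by
  intro v w
  simp [hA v w]

theorem SA.add {A B : V →L[ℝ] V} (hA : SA A) (hB : SA B) : SA (A + B) := by
  intro v w
  simp [inner_add_left, inner_add_right, hA v w, hB v w]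

theorem SA.sub {A B : V →L[ℝ] V} (hA : SA A) (hB : SA B) : SA (A - B) := by
  intro v w
  simp [inner_sub_left, inner_sub_right, hA v w, hB v w]

theorem SA.sum {ι : Type*} {s : Finset ι} {A : ι → V →L[ℝ] V} (hA : ∀ i ∈ s, SA (A i)) :
    SA (∑ i ∈ s, A i) := by
  intro v w
  simp only [ContinuousLinearMap.coe_sum', Finset.sum_apply, sum_inner, inner_sum]
  exact Finset.sum_congr rfl fun i hi => hA i hi v w

theorem SA.pow {A : V →L[ℝ] V} (hA : SA A) (k : ℕ) : SA (A ^ k) := by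
  induction k with
  | zero => simpa using SA.one
  | succ k ih =>
    intro v w
    rw [pow_succ, ContinuousLinearMap.mul_apply, ih, hA]
    rw [← ContinuousLinearMap.mul_apply, ← pow_succ', pow_succ]

theorem Psd.pow_nonneg {A : V →L[ℝ] V} (hA : Psd A) (k : ℕ) (v : V) :
    0 ≤ ⟪v, (A ^ k) v⟫_ℝ := by
  rcases Nat.even_or_odd' k with ⟨j, rfl | rfl⟩
  · rw [two_mul, pow_add, ContinuousLinearMap.mul_apply, ← hA.1.pow j]
    exact real_inner_self_nonneg
  · have : A ^ (2 * j + 1) = A ^ j * (A * A ^ j) := by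
      rw [← pow_succ', ← pow_add]; congr 1; ring
    rw [this, ContinuousLinearMap.mul_apply, ContinuousLinearMap.mul_apply, ← hA.1.pow j]
    exact hA.2 _

theorem Psd.smul {A : V →L[ℝ] V} (hA : Psd A) {c : ℝ} (hc : 0 ≤ c) : Psd (c • A) := by
  refine ⟨hA.1.smul c, fun v => ?_⟩
  simp only [ContinuousLinearMap.smul_apply, inner_smul_right]
  exact mul_nonneg hc (hA.2 v)

variable [CompleteSpace V]

theorem hasSum_inner_exp (A : V →L[ℝ] V) (v w : V) :
    HasSum (fun k : ℕ => (k ! : ℝ)⁻¹ * ⟪v, (A ^ k) w⟫_ℝ) ⟪v, exp A w⟫_ℝ := by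
  have h := exp_series_hasSum_exp' (𝕂 := ℝ) A
  have h2 := h.mapL ((innerSL ℝ v).comp (ContinuousLinearMap.apply ℝ V w))
  have e : ∀ M : V →L[ℝ] V,
      ((innerSL ℝ v).comp (ContinuousLinearMap.apply ℝ V w)) M = ⟪v, M w⟫_ℝ := fun M => rfl
  simp only [e, ContinuousLinearMap.smul_apply, inner_smul_right] at h2
  exact h2

theorem SA.exp {A : V →L[ℝ] V} (hA : SA A) : SA (NormedSpace.exp A) := by
  intro v w
  have h1 := hasSum_inner_exp A w v
  have h2 := hasSum_inner_exp A v w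
  rw [real_inner_comm]
  refine h1.unique ?_
  convert h2 using 1
  ext k
  rw [← (hA.pow k) v w, real_inner_comm]

theorem exp_add' {A B : V →L[ℝ] V} (h : Commute A B) :
    NormedSpace.exp (A + B) = NormedSpace.exp A * NormedSpace.exp B := by
  let _ : NormedAlgebra ℚ (V →L[ℝ] V) := NormedAlgebra.restrictScalars ℚ ℝ _
  exact exp_add_of_commute h

/-- the quadratic form of an exponential as a norm squared. -/
theorem inner_exp_eq {A : V →L[ℝ] V} (hA : SA A) (v : V) :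
    ⟪v, NormedSpace.exp A v⟫_ℝ = ‖NormedSpace.exp ((1/2 : ℝ) • A) v‖ ^ 2 := by
  have : A = (1/2 : ℝ) • A + (1/2 : ℝ) • A := by rw [← add_smul]; norm_num
  conv_lhs => rw [this]
  rw [exp_add' (Commute.refl _), ContinuousLinearMap.mul_apply, ← (hA.smul _).exp,
    real_inner_self_eq_norm_sq]

theorem inner_exp_nonneg {A : V →L[ℝ] V} (hA : SA A) (v : V) :
    0 ≤ ⟪v, NormedSpace.exp A v⟫_ℝ := by
  rw [inner_exp_eq hA]; positivity

/-- sandwich: `⟪v, exp (A + B) v⟫ = ⟪w, exp B w⟫` with `w = exp (A/2) v`. -/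
theorem inner_exp_add {A B : V →L[ℝ] V} (hA : SA A) (h : Commute A B) (v : V) :
    ⟪v, NormedSpace.exp (A + B) v⟫_ℝ =
      ⟪NormedSpace.exp ((1/2 : ℝ) • A) v,
        NormedSpace.exp B (NormedSpace.exp ((1/2 : ℝ) • A) v)⟫_ℝ := by
  have e : A + B = (1/2 : ℝ) • A + (B + (1/2 : ℝ) • A) := by
    have : A = (1/2 : ℝ) • A + (1/2 : ℝ) • A := by rw [← add_smul]; norm_num
    conv_lhs => rw [this]
    abel
  have h1 : Commute B ((1/2 : ℝ) • A) := (h.symm.smul_right _)
  have h2 : Commute ((1/2 : ℝ) • A) (B + (1/2 : ℝ) • A) :=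
    (h.smul_left _).add_right (Commute.refl _)
  rw [e, exp_add' h2, exp_add' h1, ContinuousLinearMap.mul_apply, ContinuousLinearMap.mul_apply,
    ← (hA.smul _).exp]

theorem one_add_le_exp {A : V →L[ℝ] V} (hA : Psd A) (v : V) :
    ‖v‖ ^ 2 + ⟪v, A v⟫_ℝ ≤ ⟪v, NormedSpace.exp A v⟫_ℝ := by
  have h := hasSum_inner_exp A v v
  have := sum_le_hasSum (Finset.range 2)
    (fun k _ => mul_nonneg (by positivity) (hA.pow_nonneg k v)) h
  simpa [Finset.sum_range_succ, real_inner_self_eq_norm_sq] using this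

/-- `exp (-s A)` is decreasing in `s` for `A ≥ 0`. -/
theorem inner_exp_anti {A : V →L[ℝ] V} (hA : Psd A) {s t : ℝ} (hst : s ≤ t) (v : V) :
    ⟪v, NormedSpace.exp (-(t • A)) v⟫_ℝ ≤ ⟪v, NormedSpace.exp (-(s • A)) v⟫_ℝ := by
  have e : -(s • A) = -(t • A) + (t - s) • A := by rw [sub_smul]; abel
  have hc : Commute (-(t • A)) ((t - s) • A) :=
    (((Commute.refl A).smul_left t).smul_right (t - s)).neg_left
  rw [e, inner_exp_add (hA.1.smul t).neg hc, inner_exp_eq (hA.1.smul t).neg]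
  have := one_add_le_exp (hA.smul (sub_nonneg.2 hst))
    (NormedSpace.exp ((1/2 : ℝ) • -(t • A)) v)
  have h2 := (hA.smul (sub_nonneg.2 hst)).2 (NormedSpace.exp ((1/2 : ℝ) • -(t • A)) v)
  linarith

end Vale.Agent.P162.H474
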