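import Vale.Agent.P162.H474.Exp

/-!
# Charges and the norm bound for the flip-odd part
-/

open scoped BigOperators InnerProductSpace Nat
open Equiv

set_option linter.deprecated false
set_option linter.unusedSectionVars false

namespace Vale.Agent.P162.H474

variable {V : Type*} [NormedAddCommGroup V] [InnerProductSpace ℝ V]

section Rep
variable {α : Type*} [Fintype α] [DecidableEq α] {ρ : Perm α →* (V →L[ℝ] V)}

theorem inner_map (hρ : ∀ g v, ‖ρ g v‖ = ‖v‖) (g : Perm α) (v w : V) :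
    ⟪ρ g v, ρ g w⟫_ℝ = ⟪v, w⟫_ℝ :=
  (LinearIsometry.mk (ρ g).toLinearMap (hρ g)).inner_map_map v w

theorem map_mul_apply (g h : Perm α) (v : V) : ρ (g * h) v = ρ g (ρ h v) := by
  rw [map_mul]; rfl

theorem sa_of_mul_self (hρ : ∀ g v, ‖ρ g v‖ = ‖v‖) {g : Perm α} (hg : g * g = 1) :
    SA (ρ g) := by
  intro v w
  rw [← inner_map hρ g v (ρ g w), ← map_mul_apply, hg]
  simp

theorem sa_swap (hρ : ∀ g v, ‖ρ g v‖ = ‖v‖) (a b : α) : SA (ρ (swap a b)) :=
  sa_of_mul_self hρ (swap_mul_self a b)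

theorem norm_sub_swap (hρ : ∀ g v, ‖ρ g v‖ = ‖v‖) (a b : α) (v : V) :
    ‖v - ρ (swap a b) v‖ ^ 2 = 2 * ⟪v, (1 - ρ (swap a b)) v⟫_ℝ := by
  rw [norm_sub_sq_real, hρ]
  simp only [ContinuousLinearMap.sub_apply, ContinuousLinearMap.one_apply, inner_sub_right,
    real_inner_self_eq_norm_sq]
  ring

theorem inner_one_sub_swap_nonneg (hρ : ∀ g v, ‖ρ g v‖ = ‖v‖) (a b : α) (v : V) :
    0 ≤ ⟪v, (1 - ρ (swap a b)) v⟫_ℝ := by
  have := norm_sub_swap hρ a b v
  have h2 : 0 ≤ ‖v - ρ (swap a b) v‖ ^ 2 := by positivity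
  linarith

theorem R_psd (hρ : ∀ g v, ‖ρ g v‖ = ‖v‖) : Psd (R ρ) := by
  refine ⟨SA.smul (SA.sum fun a _ => SA.sum fun b _ => SA.one.sub (sa_swap hρ a b)) _,
    fun v => ?_⟩
  rw [R, ContinuousLinearMap.smul_apply, inner_smul_right]
  simp only [ContinuousLinearMap.coe_sum', Finset.sum_apply, inner_sum]
  exact mul_nonneg (by norm_num) (Finset.sum_nonneg fun a _ => Finset.sum_nonneg fun b _ =>
    inner_one_sub_swap_nonneg hρ a b v)

theorem R_commute (g : Perm α) : Commute (R ρ) (ρ g) := by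
  show R ρ * ρ g = ρ g * R ρ
  have h : ∀ a b, (1 - ρ (swap (g a) (g b))) * ρ g = ρ g * (1 - ρ (swap a b)) := by
    intro a b
    have : swap (g a) (g b) * g = g * swap a b := by
      rw [← mul_swap_eq_swap_mul]
    rw [sub_mul, mul_sub, ← map_mul, this, map_mul]
    simp
  rw [R, smul_mul_assoc, mul_smul_comm]
  congr 1
  rw [Finset.sum_mul, Finset.mul_sum]
  rw [← Equiv.sum_comp g]
  refine Finset.sum_congr rfl fun a _ => ?_
  rw [Finset.sum_mul, Finset.mul_sum, ← Equiv.sum_comp g]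
  exact Finset.sum_congr rfl fun b _ => h a b

end Rep

section Schur
variable {β : Type*} [Fintype β] [DecidableEq β]

/-- flip of a set at a point, as an involution. -/
def fl (x : β) : Perm (Finset β) where
  toFun S := symmDiff S {x}
  invFun S := symmDiff S {x}
  left_inv := by intro S; simp
  right_inv := by intro S; simp

theorem fl_apply (x : β) (S : Finset β) : fl x S = symmDiff S {x} := rfl

theorem card_fl_of_mem {x : β} {S : Finset β} (h : x ∈ S) : (fl x S).card + 1 = S.card := by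
  have : fl x S = S.erase x := by
    ext y; simp only [fl_apply, Finset.mem_symmDiff, Finset.mem_singleton, Finset.mem_erase]
    constructor
    · rintro (⟨h1, h2⟩ | ⟨h1, h2⟩)
      · exact ⟨h2, h1⟩
      · subst h1; exact absurd h h2
    · rintro ⟨h1, h2⟩; exact Or.inl ⟨h2, h1⟩
  rw [this, Finset.card_erase_add_one h]

theorem card_fl_of_not_mem {x : β} {S : Finset β} (h : x ∉ S) : (fl x S).card = S.card + 1 := by
  have : fl x S = insert x S := by
    ext y; simp only [fl_apply, Finset.mem_symmDiff, Finset.mem_singleton, Finset.mem_insert]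
    constructor
    · rintro (⟨h1, h2⟩ | ⟨h1, h2⟩)
      · exact Or.inr h1
      · exact Or.inl h1
    · rintro (h1 | h1)
      · subst h1; exact Or.inr ⟨rfl, h⟩
      · exact Or.inl ⟨h1, fun h2 => h (h2 ▸ h1)⟩
  rw [this, Finset.card_insert_of_notMem h]

theorem mem_fl_self {x : β} {S : Finset β} : x ∈ fl x S ↔ x ∉ S := by
  simp [fl_apply, Finset.mem_symmDiff]

/-- sum over the neighbours in the cube of subsets. -/
def Lop (a : Finset β → ℝ) (S : Finset β) : ℝ := ∑ x, a (fl x S)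

theorem Lop_supp {a : Finset β → ℝ} {q : ℕ} (ha : ∀ S, q < S.card → a S = 0) (S : Finset β)
    (hS : q + 1 < S.card) : Lop a S = 0 := by
  refine Finset.sum_eq_zero fun x _ => ha _ ?_
  by_cases hx : x ∈ S
  · have := card_fl_of_mem hx; omega
  · have := card_fl_of_not_mem hx; omega

/-- Schur test for `Lop` on low layers. -/
theorem Lop_sq_le {a : Finset β → ℝ} {q : ℕ} (ha : ∀ S, q < S.card → a S = 0) :
    ∑ S, (Lop a S) ^ 2 ≤ 4 * (q + 1) * Fintype.card β * ∑ S, (a S) ^ 2 := by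
  set m : ℕ := Fintype.card β with hm
  have hw : ∀ S : Finset β, (Lop a S) ^ 2 ≤
      ∑ x, (if x ∈ S then (2 * S.card : ℝ) else 2 * (m - S.card)) * (a (fl x S)) ^ 2 := by
    intro S
    have h1 : Lop a S = ∑ x ∈ S, a (fl x S) + ∑ x ∈ Sᶜ, a (fl x S) := by
      rw [Lop, Finset.sum_add_sum_compl]
    have h2 : (∑ x ∈ S, a (fl x S)) ^ 2 ≤ S.card * ∑ x ∈ S, (a (fl x S)) ^ 2 :=
      sq_sum_le_card_mul_sum_sq
    have h3 : (∑ x ∈ Sᶜ, a (fl x S)) ^ 2 ≤ (Sᶜ).card * ∑ x ∈ Sᶜ, (a (fl x S)) ^ 2 :=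
      sq_sum_le_card_mul_sum_sq
    have h4 : ((Sᶜ).card : ℝ) = m - S.card := by
      rw [Finset.card_compl, Nat.cast_sub (Finset.card_le_univ S)]
    have h5 : ∑ x, (if x ∈ S then (2 * S.card : ℝ) else 2 * (m - S.card)) * (a (fl x S)) ^ 2
        = ∑ x ∈ S, (2 * S.card : ℝ) * (a (fl x S)) ^ 2
          + ∑ x ∈ Sᶜ, (2 * (m - S.card : ℝ)) * (a (fl x S)) ^ 2 := by
      rw [← Finset.sum_add_sum_compl S]
      congr 1
      · exact Finset.sum_congr rfl fun x hx => by rw [if_pos hx]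
      · exact Finset.sum_congr rfl fun x hx => by rw [if_neg (Finset.mem_compl.1 hx)]
    rw [h5, ← Finset.mul_sum, ← Finset.mul_sum, h1]
    rw [h4] at h3
    nlinarith [sq_nonneg (∑ x ∈ S, a (fl x S) - ∑ x ∈ Sᶜ, a (fl x S))]
  refine (Finset.sum_le_sum fun S _ => hw S).trans ?_
  rw [Finset.sum_comm]
  have h6 : ∀ x : β, ∑ S : Finset β,
      (if x ∈ S then (2 * S.card : ℝ) else 2 * (m - S.card)) * (a (fl x S)) ^ 2 =
      ∑ S : Finset β, (if x ∈ S then (2 * (m - S.card + 1) : ℝ) else 2 * (S.card + 1))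
        * (a S) ^ 2 := by
    intro x
    rw [← Equiv.sum_comp (fl x)]
    refine Finset.sum_congr rfl fun S _ => ?_
    have e : fl x (fl x S) = S := by simp [fl_apply]
    rw [e]
    by_cases hx : x ∈ S
    · have h7 : x ∉ fl x S := by rw [mem_fl_self]; simpa using hx
      rw [if_neg h7, if_pos hx]
      have := card_fl_of_mem hx
      have h8 : ((fl x S).card : ℝ) = S.card - 1 := by
        rw [← this]; push_cast; ring
      rw [h8]; ring
    · have h7 : x ∈ fl x S := by rw [mem_fl_self]; exact hx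
      rw [if_pos h7, if_neg hx]
      rw [card_fl_of_not_mem hx]; push_cast; ring
  rw [Finset.sum_congr rfl fun x _ => h6 x, Finset.sum_comm, Finset.mul_sum]
  refine Finset.sum_le_sum fun S _ => ?_
  rw [← Finset.sum_mul]
  by_cases hS : q < S.card
  · rw [ha S hS]; simp
  refine mul_le_mul_of_nonneg_right ?_ (sq_nonneg _)
  rw [← Finset.sum_add_sum_compl S]
  have e1 : ∑ x ∈ S, (if x ∈ S then (2 * (m - S.card + 1) : ℝ) else 2 * (S.card + 1))
      = S.card * (2 * (m - S.card + 1)) := by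
    rw [Finset.sum_congr rfl fun x hx => if_pos hx]; simp
  have e2 : ∑ x ∈ Sᶜ, (if x ∈ S then (2 * (m - S.card + 1) : ℝ) else 2 * (S.card + 1))
      = (m - S.card) * (2 * (S.card + 1)) := by
    rw [Finset.sum_congr rfl fun x hx => if_neg (Finset.mem_compl.1 hx)]
    simp [Finset.card_compl, Nat.cast_sub (Finset.card_le_univ S), hm]
  rw [e1, e2]
  have hq : (S.card : ℝ) ≤ q := by exact_mod_cast not_lt.1 hS
  have hcm : (S.card : ℝ) ≤ m := by exact_mod_cast (Finset.card_le_univ S)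
  have h0 : (0 : ℝ) ≤ S.card := by positivity
  have hm0 : (0 : ℝ) ≤ m := by positivity
  have key : (S.card : ℝ) * (m - S.card + 1) ≤ q * m := by
    rcases Nat.eq_zero_or_pos S.card with h | h
    · rw [h]; simp; positivity
    · have : (1 : ℝ) ≤ S.card := by exact_mod_cast h
      nlinarith
  nlinarith

end Schur

end Vale.Agent.P162.H474
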