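import Vale.Agent.P162.H474.Charge

/-!
# One level of the recursion: `⟪v, exp(-s(R₀+R₁)) v⟫ ≤ ⟪v, exp(-s(1-4s)R/2) v⟫` for `P v = v`
-/

open scoped BigOperators InnerProductSpace Nat
open Equiv

set_option linter.deprecated false
set_option linter.unusedSectionVars false

namespace Vale.Agent.P162.H474

variable {V : Type*} [NormedAddCommGroup V] [InnerProductSpace ℝ V]
variable {β : Type*} [Fintype β] [DecidableEq β] {ρ : Perm (Bool × β) →* (V →L[ℝ] V)}

theorem E_symm (x y : β) : E ρ y x = E ρ x y := by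
  simp only [E]
  rw [swap_comm (false, y) (true, x), swap_comm (true, y) (false, x),
    swap_comm (false, y) (false, x), swap_comm (true, y) (true, x)]
  abel

theorem flip_eq_of_charge_empty {w : V} (hw : HasCharge ρ ∅ w) (z : β) : ρ (flip {z}) w = w := by
  simpa using hw z

theorem E_self_apply {w : V} (hw : HasCharge ρ ∅ w) (x : β) : E ρ x x w = 0 := by
  have h := flip_eq_of_charge_empty hw x
  rw [flip_singleton] at h
  simp only [E, swap_self, ContinuousLinearMap.sub_apply, ContinuousLinearMap.add_apply]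
  rw [swap_comm (true, x) (false, x), h]
  have : ρ (Equiv.refl (Bool × β)) w = w := by
    have : (Equiv.refl (Bool × β) : Perm (Bool × β)) = 1 := rfl
    rw [this, map_one]; rfl
  rw [this]; abel

theorem fl_fl_empty {x y : β} (h : x ≠ y) : fl y (fl x ∅) = {x, y} := by
  ext z
  simp only [fl_apply, Finset.mem_symmDiff, Finset.mem_singleton, Finset.mem_insert]
  constructor
  · rintro (⟨h1 | h1, h2⟩ | ⟨h1, h2⟩)
    · exact absurd h1.1 (by simp)
    · exact Or.inl h1.1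
    · exact Or.inr h1
  · rintro (h1 | h1)
    · exact Or.inl ⟨Or.inr ⟨h1, by simp⟩, fun h2 => h (h1 ▸ h2)⟩
    · exact Or.inr ⟨h1, fun h2 => by
        rcases h2 with h2 | h2
        · exact absurd h2.1 (by simp)
        · exact h (h2.1 ▸ h1)⟩

theorem B_apply (w : V) : B ρ w = (-(1/4) : ℝ) • ∑ p : β × β, E ρ p.1 p.2 w := by
  rw [B, ContinuousLinearMap.smul_apply, Fintype.sum_prod_type]
  simp only [ContinuousLinearMap.coe_sum', Finset.sum_apply]

/-- the key bound `‖B w‖² ≤ 2 ⟪w, R w⟫` for flip invariant `w`. -/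
theorem norm_B_sq_le (hρ : ∀ g v, ‖ρ g v‖ = ‖v‖) {w : V} (hw : HasCharge ρ ∅ w) :
    ‖B ρ w‖ ^ 2 ≤ 2 * ⟪w, R ρ w⟫_ℝ := by
  have h1 : ‖∑ p : β × β, E ρ p.1 p.2 w‖ ^ 2 ≤ 2 * ∑ p : β × β, ‖E ρ p.1 p.2 w‖ ^ 2 := by
    rw [← real_inner_self_eq_norm_sq, sum_inner, Finset.mul_sum]
    refine Finset.sum_le_sum fun p _ => ?_
    rw [inner_sum]
    by_cases hp : p.1 = p.2
    · have : E ρ p.1 p.2 w = 0 := by rw [hp]; exact E_self_apply hw _
      rw [this]; simp
    · have hsub : ∑ p' : β × β, ⟪E ρ p.1 p.2 w, E ρ p'.1 p'.2 w⟫_ℝ =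
          ∑ p' ∈ {p, p.swap}, ⟪E ρ p.1 p.2 w, E ρ p'.1 p'.2 w⟫_ℝ := by
        symm
        refine Finset.sum_subset (Finset.subset_univ _) fun p' _ hp' => ?_
        by_cases hp'' : p'.1 = p'.2
        · have : E ρ p'.1 p'.2 w = 0 := by rw [hp'']; exact E_self_apply hw _
          rw [this]; simp
        · refine (hw.E p.1 p.2).inner_eq_zero hρ (hw.E p'.1 p'.2) ?_
          rw [fl_fl_empty hp, fl_fl_empty hp'']
          intro heq
          apply hp'
          rw [Finset.mem_insert, Finset.mem_singleton]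
          have h2 : p'.1 ∈ ({p.1, p.2} : Finset β) := by rw [heq]; simp
          have h3 : p'.2 ∈ ({p.1, p.2} : Finset β) := by rw [heq]; simp
          rw [Finset.mem_insert, Finset.mem_singleton] at h2 h3
          rcases h2 with h2 | h2 <;> rcases h3 with h3 | h3
          · exact absurd (h2.trans h3.symm) hp''
          · left; exact Prod.ext h2 h3
          · right; exact Prod.ext h2 h3
          · exact absurd (h2.trans h3.symm) hp''
      have hne : p ≠ p.swap := by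
        intro h; exact hp (congrArg Prod.fst h)
      rw [hsub, Finset.sum_pair hne]
      simp only [Prod.fst_swap, Prod.snd_swap]
      rw [E_symm p.1 p.2, real_inner_self_eq_norm_sq]
      linarith
  have h2 := sum_norm_E_sq_le hρ w
  rw [B_apply, norm_smul, mul_pow]
  rw [← Fintype.sum_prod_type' (f := fun x y => ‖E ρ x y w‖ ^ 2)] at h2
  have h3 : ‖(-(1/4) : ℝ)‖ = 1/4 := by norm_num
  rw [h3]
  nlinarith

/-- moments of `B`. -/
theorem B_moments (hρ : ∀ g v, ‖ρ g v‖ = ‖v‖) {w : V} (hw : HasCharge ρ ∅ w) :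
    ⟪w, B ρ w⟫_ℝ = 0 ∧
    ∀ j : ℕ, ‖(B ρ ^ j) (B ρ w)‖ ≤ (8 * Fintype.card β) ^ j * (j + 1)! * ‖B ρ w‖ := by
  set c0 : Finset β → V := fun S => if S = ∅ then w else 0 with hc0
  have hc0c : ∀ S, HasCharge ρ S (c0 S) := by
    intro S
    by_cases h : S = ∅
    · simp only [hc0, h, if_true]; exact hw
    · simp only [hc0, h, if_false]; exact HasCharge.zero S
  have hc0s : ∑ S, c0 S = w := by simp [hc0]
  have hsup : ∀ S, 2 < S.card → K ρ c0 S = 0 := by
    intro S hS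
    refine K_supp (q := 0) ?_ S (by omega) hρ
    intro S' hS'
    have : S' ≠ ∅ := by rintro rfl; simp at hS'
    simp [hc0, this]
  have h1s : ∑ S, K ρ c0 S = B ρ w := by rw [K_sum, hc0s]
  have h1c : ∀ S, HasCharge ρ S (K ρ c0 S) := K_charge hc0c
  have h10 : K ρ c0 ∅ = 0 := by
    rw [K]
    convert smul_zero _
    refine Finset.sum_eq_zero fun x _ => Finset.sum_eq_zero fun y _ => ?_
    by_cases hxy : x = y
    · subst hxy
      have : fl x (fl x ∅) = ∅ := by simp [fl_apply]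
      rw [this]
      simp only [hc0, if_true]
      exact E_self_apply hw x
    · have : fl x (fl y ∅) ≠ ∅ := by
        rw [fl_fl_empty (Ne.symm hxy)]
        exact Finset.insert_ne_empty _ _
      simp [hc0, this]
  constructor
  · rw [← h1s, inner_sum]
    refine Finset.sum_eq_zero fun S _ => ?_
    by_cases h : S = ∅
    · rw [h, h10]; simp
    · exact hw.inner_eq_zero hρ (h1c S) (Ne.symm h)
  · intro j
    have h2 := (iterate_K_sq_le hρ hsup j).2
    rw [← norm_sq_sum hρ h1c, ← norm_sq_sum hρ (iterate_K_charge h1c j), iterate_K_sum, h1s] at h2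
    have h3 : (((8 * Fintype.card β : ℝ)) ^ j * (j + 1)!) ^ 2 * ‖B ρ w‖ ^ 2 =
        ((8 * Fintype.card β : ℝ) ^ j * (j + 1)! * ‖B ρ w‖) ^ 2 := by ring
    rw [h3] at h2
    exact (pow_le_pow_iff_left₀ (norm_nonneg _) (by positivity) two_ne_zero).1 h2

theorem B_SA (hρ : ∀ g v, ‖ρ g v‖ = ‖v‖) : SA (B ρ) := by
  refine SA.smul (SA.sum fun x _ => SA.sum fun y _ => ?_) _
  exact (((sa_swap hρ _ _).add (sa_swap hρ _ _)).sub (sa_swap hρ _ _)).sub (sa_swap hρ _ _)

variable [CompleteSpace V]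

theorem inner_exp_B_le (hρ : ∀ g v, ‖ρ g v‖ = ‖v‖) {w : V} (hw : HasCharge ρ ∅ w) {s : ℝ}
    (hs : 0 ≤ s) (hs' : 16 * Fintype.card β * s ≤ 1) :
    ⟪w, NormedSpace.exp (s • B ρ) w⟫_ℝ ≤ ‖w‖ ^ 2 + 2 * s ^ 2 * ⟪w, R ρ w⟫_ℝ := by
  obtain ⟨hm1, hm⟩ := B_moments hρ hw
  have hf := hasSum_inner_exp (s • B ρ) w w
  set u := B ρ w with hu
  have hg : HasSum (fun k : ℕ => if k = 0 then ‖w‖ ^ 2 else if k = 1 then 0 else
      s ^ 2 * ‖u‖ ^ 2 * (1/2) * (1/2 : ℝ) ^ (k - 2)) (‖w‖ ^ 2 + s ^ 2 * ‖u‖ ^ 2) := by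
    rw [← hasSum_nat_add_iff' 2]
    have h := hasSum_geometric_two.mul_left (s ^ 2 * ‖u‖ ^ 2 * (1/2))
    have e : s ^ 2 * ‖u‖ ^ 2 * (1/2) * 2 = ‖w‖ ^ 2 + s ^ 2 * ‖u‖ ^ 2 -
        ∑ k ∈ Finset.range 2, (if k = 0 then ‖w‖ ^ 2 else if k = 1 then 0 else
      s ^ 2 * ‖u‖ ^ 2 * (1/2) * (1/2 : ℝ) ^ (k - 2)) := by
      simp [Finset.sum_range_succ]
    rw [← e]
    exact h
  have hle := hasSum_le ?_ hf hg
  · have h2 := norm_B_sq_le hρ hw
    refine hle.trans ?_
    have h3 : s ^ 2 * ‖u‖ ^ 2 ≤ s ^ 2 * (2 * ⟪w, R ρ w⟫_ℝ) :=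
      mul_le_mul_of_nonneg_left h2 (sq_nonneg s)
    linarith
  · intro k
    rcases k with _ | _ | j
    · simp
    · rw [hu] at hm1
      simp [inner_smul_right, hm1]
    · have e1 : ⟪w, ((s • B ρ) ^ (j + 1 + 1)) w⟫_ℝ =
          s ^ (j + 2) * ⟪u, (B ρ ^ j) u⟫_ℝ := by
        rw [smul_pow, ContinuousLinearMap.smul_apply, inner_smul_right]
        have : B ρ ^ (j + 1 + 1) = B ρ * (B ρ ^ j * B ρ) := by
          rw [← pow_succ, ← pow_succ']
        rw [this, ContinuousLinearMap.mul_apply, ContinuousLinearMap.mul_apply, ← B_SA hρ]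
      have e2 : ⟪u, (B ρ ^ j) u⟫_ℝ ≤ (8 * Fintype.card β) ^ j * (j + 1)! * ‖u‖ ^ 2 := by
        refine (real_inner_le_norm _ _).trans ?_
        calc ‖u‖ * ‖(B ρ ^ j) u‖ ≤ ‖u‖ * ((8 * Fintype.card β) ^ j * (j + 1)! * ‖u‖) :=
              mul_le_mul_of_nonneg_left (hm j) (norm_nonneg _)
          _ = _ := by ring
      rw [e1]
      simp only [Nat.add_eq_zero_iff, one_ne_zero, and_false, if_false, Nat.add_eq_right]
      have hfac : ((j + 1 + 1)! : ℝ) = (j + 2) * (j + 1)! := by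
        rw [Nat.factorial_succ (j + 1)]; push_cast; ring
      have hfpos : (0 : ℝ) < (j + 1)! := by exact_mod_cast Nat.factorial_pos _
      have e3 : (((j + 1 + 1)! : ℝ))⁻¹ * (s ^ (j + 2) * ⟪u, (B ρ ^ j) u⟫_ℝ) ≤
          (((j + 1 + 1)! : ℝ))⁻¹ * (s ^ (j + 2) *
            ((8 * Fintype.card β) ^ j * (j + 1)! * ‖u‖ ^ 2)) :=
        mul_le_mul_of_nonneg_left (mul_le_mul_of_nonneg_left e2 (by positivity))
          (by positivity)
      refine e3.trans ?_
      have e4 : (((j + 1 + 1)! : ℝ))⁻¹ * (s ^ (j + 2) *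
            ((8 * Fintype.card β) ^ j * (j + 1)! * ‖u‖ ^ 2)) =
          s ^ 2 * ‖u‖ ^ 2 * ((j : ℝ) + 2)⁻¹ * (8 * Fintype.card β * s) ^ j := by
        rw [hfac, mul_inv, mul_pow (8 * (Fintype.card β : ℝ)) s j]
        field_simp
        ring
      rw [e4]
      have e5 : (8 * Fintype.card β * s) ^ j ≤ (1/2 : ℝ) ^ j :=
        pow_le_pow_left₀ (by positivity) (by linarith) j
      have e6 : ((j : ℝ) + 2)⁻¹ ≤ 1/2 := by
        rw [one_div]
        exact inv_anti₀ (by norm_num) (by linarith [Nat.cast_nonneg (α := ℝ) j])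
      have e7 : j + 1 + 1 - 2 = j := by omega
      simp only [e7]
      have e9 : (0 : ℝ) ≤ s ^ 2 * ‖u‖ ^ 2 := by positivity
      calc s ^ 2 * ‖u‖ ^ 2 * ((j : ℝ) + 2)⁻¹ * (8 * Fintype.card β * s) ^ j
          ≤ s ^ 2 * ‖u‖ ^ 2 * (1/2) * (8 * Fintype.card β * s) ^ j := by
            refine mul_le_mul_of_nonneg_right (mul_le_mul_of_nonneg_left e6 e9) (by positivity)
        _ ≤ _ := mul_le_mul_of_nonneg_left e5 (by positivity)

/-- vectors fixed by `P` have charge `∅`. -/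
theorem flip_mul_P (z : β) : ρ (flip {z}) * P ρ = P ρ := by
  rw [P, mul_smul_comm, Finset.mul_sum]
  congr 1
  have h : ∀ U : Finset β, ρ (flip {z}) * ρ (flip U) = ρ (flip (fl z U)) := by
    intro U
    rw [← map_mul, flip_mul, fl_apply, symmDiff_comm]
  rw [Finset.sum_congr rfl fun U _ => h U]
  exact Equiv.sum_comp (fl z) (fun U => ρ (flip U))

theorem P_charge (v : V) : HasCharge ρ ∅ (P ρ v) := by
  intro z
  rw [← ContinuousLinearMap.mul_apply, flip_mul_P]; simp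

/-- **Level inequality.** -/
theorem level_le (hρ : ∀ g v, ‖ρ g v‖ = ‖v‖) {v : V} (hv : HasCharge ρ ∅ v) {s : ℝ}
    (hs : 0 ≤ s) (hs' : 16 * Fintype.card β * s ≤ 1) :
    ⟪v, NormedSpace.exp (-(s • (R (ρ.comp (hf false)) + R (ρ.comp (hf true))))) v⟫_ℝ ≤
      ⟪v, NormedSpace.exp (-((s * (1 - 4 * s) / 2) • R ρ)) v⟫_ℝ := by
  have hRB : Commute (R ρ) (B ρ) := by
    rw [B]
    refine Commute.smul_right (Commute.sum_right _ _ _ fun x _ =>
      Commute.sum_right _ _ _ fun y _ => ?_) _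
    exact (((R_commute _).add_right (R_commute _)).sub_right (R_commute _)).sub_right
      (R_commute _)
  have e1 : -(s • (R (ρ.comp (hf false)) + R (ρ.comp (hf true)))) =
      -((s / 2) • R ρ) + s • B ρ := by
    rw [R_halves]; module
  have e2 : -((s * (1 - 4 * s) / 2) • R ρ) = -((s / 2) • R ρ) + (2 * s ^ 2) • R ρ := by
    module
  have hc1 : Commute (-((s / 2) • R ρ)) (s • B ρ) :=
    ((hRB.smul_left _).smul_right _).neg_left
  have hc2 : Commute (-((s / 2) • R ρ)) ((2 * s ^ 2) • R ρ) :=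
    (((Commute.refl _).smul_left _).smul_right _).neg_left
  have hsa : SA (-((s / 2) • R ρ)) := ((R_psd hρ).1.smul _).neg
  rw [e1, e2, inner_exp_add hsa hc1, inner_exp_add hsa hc2]
  set w := NormedSpace.exp ((1/2 : ℝ) • -((s / 2) • R ρ)) v with hw
  have hwc : HasCharge ρ ∅ w := by
    intro z
    have hcomm : Commute (ρ (flip {z})) (NormedSpace.exp ((1/2 : ℝ) • -((s / 2) • R ρ))) := by
      refine Commute.exp_right ?_
      have c1 : Commute (ρ (flip {z})) (R ρ) := (R_commute _).symm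
      have c2 : Commute (ρ (flip {z})) ((s / 2) • R ρ) := c1.smul_right _
      have c3 : Commute (ρ (flip {z})) (-((s / 2) • R ρ)) := c2.neg_right
      exact c3.smul_right _
    have h2 := congrArg (fun M : V →L[ℝ] V => M v) hcomm.eq
    simp only [ContinuousLinearMap.mul_apply] at h2
    rw [hw, h2, flip_eq_of_charge_empty hv z]; simp
  refine (inner_exp_B_le hρ hwc hs hs').trans ?_
  have h3 := one_add_le_exp ((R_psd hρ).smul (c := 2 * s ^ 2) (by positivity)) w
  rw [ContinuousLinearMap.smul_apply, inner_smul_right] at h3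
  exact h3

end Vale.Agent.P162.H474
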